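import Vale.Agent.P198.Parts

/-! Directional derivatives in the plane. -/

open Set Metric Topology Filter InnerProductSpace MeasureTheory
open scoped Laplacian Convolution

namespace Vale.Agent.P198.C1

/-- Directional derivative. -/
noncomputable def Dv (v : ℂ) (ψ : ℂ → ℝ) (p : ℂ) : ℝ := fderiv ℝ ψ p v

lemma LL_eq (a b c : ℝ) (ψ : ℂ → ℝ) (p : ℂ) : LL a b c ψ p =
    a * Dv 1 (Dv 1 ψ) p + 2 * b * Dv 1 (Dv Complex.I ψ) p +
      c * Dv Complex.I (Dv Complex.I ψ) p := rfl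

lemma Dv_contDiff {n : ℕ∞} {ψ : ℂ → ℝ} (h : ContDiff ℝ (n + 1) ψ) (v : ℂ) :
    ContDiff ℝ n (Dv v ψ) :=
  (h.fderiv_right (m := n) (by simp)).clm_apply contDiff_const

lemma Dv_cpt {ψ : ℂ → ℝ} (h : HasCompactSupport ψ) (v : ℂ) : HasCompactSupport (Dv v ψ) :=
  h.fderiv_apply ℝ v

lemma Dv_tsupp (ψ : ℂ → ℝ) (v : ℂ) : tsupport (Dv v ψ) ⊆ tsupport ψ :=
  tsupport_fderiv_apply_subset ℝ v

lemma LL_zero {a b c : ℝ} {ψ : ℂ → ℝ} {p : ℂ} (h : p ∉ tsupport ψ) : LL a b c ψ p = 0 := by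
  have k : ∀ v w, Dv v (Dv w ψ) p = 0 := fun v w =>
    image_eq_zero_of_notMem_tsupport fun hp => h (Dv_tsupp _ _ (Dv_tsupp _ _ hp))
  simp [LL_eq, k]

lemma Dv_Dv {ψ : ℂ → ℝ} (h : ContDiff ℝ 2 ψ) (v w p : ℂ) :
    Dv v (Dv w ψ) p = fderiv ℝ (fderiv ℝ ψ) p v w := by
  have h1 : DifferentiableAt ℝ (fderiv ℝ ψ) p :=
    ((h.fderiv_right (m := 1) (by norm_num)).differentiable (by norm_num)) p
  unfold Dv
  rw [fderiv_clm_apply h1 (differentiableAt_const w)]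
  simp

lemma LL_lap {ψ : ℂ → ℝ} (h : ContDiff ℝ 2 ψ) (p : ℂ) : LL 1 0 1 ψ p = Δ ψ p := by
  simp [LL_eq, Dv_Dv h, laplacian_eq_iteratedFDeriv_complexPlane, iteratedFDeriv_two_apply]

lemma Dv_aff {ψ : ℂ → ℝ} (h : Differentiable ℝ ψ) (T : ℂ →L[ℝ] ℂ) (b v : ℂ) :
    Dv v (fun t => ψ (T t + b)) = fun t => Dv (T v) ψ (T t + b) := by
  funext p
  have h1 : HasFDerivAt (fun t => T t + b) T p := T.hasFDerivAt.add_const b
  have := ((h (T p + b)).hasFDerivAt.comp p h1).fderiv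
  unfold Dv
  exact congrArg (fun L : ℂ →L[ℝ] ℝ => L v) this

lemma Dv_Dv_aff {ψ : ℂ → ℝ} (h : ContDiff ℝ 2 ψ) (T : ℂ →L[ℝ] ℂ) (b v w p : ℂ) :
    Dv v (Dv w fun t => ψ (T t + b)) p = fderiv ℝ (fderiv ℝ ψ) (T p + b) (T v) (T w) := by
  have h1 : ContDiff ℝ (1 : ℕ∞) (Dv (T w) ψ) := Dv_contDiff (n := 1) (by exact_mod_cast h) _
  rw [Dv_aff (h.differentiable (by norm_num)), Dv_aff (h1.differentiable (by norm_num)),
    ← Dv_Dv h]

lemma LL_refl {ψ : ℂ → ℝ} (h : ContDiff ℝ 2 ψ) (z p : ℂ) :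
    LL 1 0 1 (fun t => ψ (z - t)) p = LL 1 0 1 ψ (z - p) := by
  have e : (fun t => ψ (z - t)) = fun t => ψ ((-ContinuousLinearMap.id ℝ ℂ) t + z) := by
    funext t; simp [sub_eq_neg_add]
  rw [e]
  simp only [LL_eq, Dv_Dv_aff h, Dv_Dv h]
  simp [sub_eq_neg_add]

lemma Dv_conv {f g : ℂ → ℝ} (hf : Continuous f) (hg : ContDiff ℝ 1 g) (hc : HasCompactSupport g)
    (v : ℂ) : Dv v (f ⋆[ContinuousLinearMap.lsmul ℝ ℝ, volume] g) =
      f ⋆[ContinuousLinearMap.lsmul ℝ ℝ, volume] Dv v g := by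
  funext p
  unfold Dv
  rw [(hc.hasFDerivAt_convolution_right _ hf.locallyIntegrable hg p).fderiv,
    convolution_precompR_apply _ hf.locallyIntegrable (hc.fderiv ℝ)
      (hg.continuous_fderiv (by norm_num))]

lemma LL_conv {f g : ℂ → ℝ} (hf : Continuous f) (hg : ContDiff ℝ 2 g) (hc : HasCompactSupport g)
    (p : ℂ) : LL 1 0 1 (f ⋆[ContinuousLinearMap.lsmul ℝ ℝ, volume] g) p =
      ∫ t, f t * LL 1 0 1 g (p - t) := by
  have h1 : ∀ v, ContDiff ℝ 1 (Dv v g) := fun v => by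
    exact_mod_cast Dv_contDiff (n := 1) (by exact_mod_cast hg) v
  have h2 : ∀ v w, Continuous (Dv v (Dv w g)) := fun v w =>
    (Dv_contDiff (n := 0) (by simpa using h1 w) v).continuous
  have h3 : ∀ v w, Integrable fun t => f t * Dv v (Dv w g) (p - t) := fun v w =>
    (Dv_cpt (Dv_cpt hc w) v).convolutionExists_right (ContinuousLinearMap.lsmul ℝ ℝ)
      hf.locallyIntegrable (h2 v w) p
  simp only [LL_eq, Dv_conv hf (hg.of_le (by norm_num)) hc, Dv_conv hf (h1 _) (Dv_cpt hc _),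
    convolution_def, ContinuousLinearMap.lsmul_apply, smul_eq_mul, one_mul, mul_zero, zero_mul,
    add_zero, mul_add]
  rw [integral_add (h3 _ _) (h3 _ _)]

end Vale.Agent.P198.C1
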