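import Vale.Agent.P198.C1.Weyl

/-! A map whose first two powers are harmonic is holomorphic or antiholomorphic. -/

open Set Metric Topology Filter InnerProductSpace Complex

namespace Vale.Agent.P198.C1

/-- Twice the `z`-derivative. -/
noncomputable def pz (u : ℂ → ℝ) (z : ℂ) : ℂ := fderiv ℝ u z 1 - I * fderiv ℝ u z I

lemma pz_an {u : ℂ → ℝ} {z : ℂ} (h : HarmonicAt u z) : AnalyticAt ℂ (pz u) z :=
  _root_.HarmonicAt.analyticAt_complex_partial h

lemma fd_re {F : ℂ → ℂ} {z : ℂ} (h : DifferentiableAt ℝ F z) (v : ℂ) :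
    fderiv ℝ (fun w => (F w).re) z v = (fderiv ℝ F z v).re := by
  have := (reCLM.hasFDerivAt.comp z h.hasFDerivAt).fderiv
  exact congrArg (fun L : ℂ →L[ℝ] ℝ => L v) this

lemma fd_im {F : ℂ → ℂ} {z : ℂ} (h : DifferentiableAt ℝ F z) (v : ℂ) :
    fderiv ℝ (fun w => (F w).im) z v = (fderiv ℝ F z v).im := by
  have := (imCLM.hasFDerivAt.comp z h.hasFDerivAt).fderiv
  exact congrArg (fun L : ℂ →L[ℝ] ℝ => L v) this

/-- Twice the `z`-derivative of a complex function. -/
noncomputable def PZ (F : ℂ → ℂ) (z : ℂ) : ℂ :=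
  pz (fun w => (F w).re) z + I * pz (fun w => (F w).im) z

/-- Twice the `z`-derivative of the conjugate. -/
noncomputable def PB (F : ℂ → ℂ) (z : ℂ) : ℂ :=
  pz (fun w => (F w).re) z - I * pz (fun w => (F w).im) z

lemma PZ_eq {F : ℂ → ℂ} {z : ℂ} (h : DifferentiableAt ℝ F z) :
    PZ F z = fderiv ℝ F z 1 - I * fderiv ℝ F z I := by
  simp only [PZ, pz, fd_re h, fd_im h]
  apply Complex.ext <;> simp <;> ring

lemma PB_zero {F : ℂ → ℂ} {z : ℂ} (h : DifferentiableAt ℝ F z) :
    PB F z = 0 ↔ DifferentiableAt ℂ F z := by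
  rw [differentiableAt_complex_iff_differentiableAt_real]
  simp only [PB, pz, fd_re h, fd_im h, h, true_and, Complex.ext_iff]
  simp
  constructor <;> rintro ⟨h1, h2⟩ <;> constructor <;> linarith

lemma PZ_conj {F : ℂ → ℂ} {z : ℂ} (h : DifferentiableAt ℝ F z) :
    PB (fun w => (starRingEnd ℂ) (F w)) z = PZ F z := by
  have h2 : DifferentiableAt ℝ (fun w => (F w).im) z :=
    imCLM.differentiableAt.comp z h
  simp only [PB, PZ, pz, conj_re, conj_im, fderiv_fun_neg]
  simp
  ring

lemma PZ_sq {F : ℂ → ℂ} {z : ℂ} (h : DifferentiableAt ℝ F z) :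
    PZ (fun w => F w ^ 2) z = 2 * F z * PZ F z := by
  have h2 : HasFDerivAt (fun w => F w * F w) _ z := h.hasFDerivAt.mul h.hasFDerivAt
  simp only [sq]
  rw [PZ_eq h2.differentiableAt, PZ_eq h, h2.fderiv]
  simp
  ring

theorem hol_or_anti {W : Set ℂ} (hW : IsOpen W) (hc : IsPreconnected W) {F : ℂ → ℂ}
    (h1 : HarmonicOnNhd (fun w => (F w).re) W) (h2 : HarmonicOnNhd (fun w => (F w).im) W)
    (h3 : HarmonicOnNhd (fun w => (F w ^ 2).re) W) (h4 : HarmonicOnNhd (fun w => (F w ^ 2).im) W) :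
    DifferentiableOn ℂ F W ∨ DifferentiableOn ℂ (fun w => (starRingEnd ℂ) (F w)) W := by
  have hd : ∀ z ∈ W, DifferentiableAt ℝ F z := fun z hz => by
    have a := (h1 z hz).1.differentiableAt (by norm_num)
    have b := (h2 z hz).1.differentiableAt (by norm_num)
    have e : F = fun w => ofRealCLM (F w).re + ofRealCLM (F w).im * I := by
      funext w; simp
    rw [e]
    exact (ofRealCLM.differentiableAt.comp z a).add
      ((ofRealCLM.differentiableAt.comp z b).mul_const I)
  by_cases h : ∀ z ∈ W, PZ F z = 0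
  · refine Or.inr fun z hz => DifferentiableAt.differentiableWithinAt ?_
    have : DifferentiableAt ℝ (fun w => (starRingEnd ℂ) (F w)) z :=
      conjCLE.differentiableAt.comp z (hd z hz)
    rw [← PB_zero this, PZ_conj (hd z hz), h z hz]
  · push Not at h
    obtain ⟨z, hz, hz0⟩ := h
    have a1 : AnalyticAt ℂ (PZ F) z :=
      (pz_an (h1 z hz)).add (analyticAt_const.mul (pz_an (h2 z hz)))
    have a2 : AnalyticAt ℂ (PZ fun w => F w ^ 2) z :=
      (pz_an (h3 z hz)).add (analyticAt_const.mul (pz_an (h4 z hz)))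
    have a3 : AnalyticAt ℂ (fun w => PZ (fun w => F w ^ 2) w / (2 * PZ F w)) z :=
      a2.div (analyticAt_const.mul a1) (mul_ne_zero two_ne_zero hz0)
    have a4 : AnalyticAt ℂ F z := by
      refine a3.congr ?_
      filter_upwards [hW.mem_nhds hz, a1.continuousAt.eventually_ne hz0] with w hw hw0
      rw [PZ_sq (hd w hw)]
      field_simp
    have a5 : AnalyticOnNhd ℂ (PB F) W := fun w hw =>
      (pz_an (h1 w hw)).sub (analyticAt_const.mul (pz_an (h2 w hw)))
    have a6 : EqOn (PB F) 0 W := by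
      refine a5.eqOn_zero_of_preconnected_of_eventuallyEq_zero hc hz ?_
      filter_upwards [hW.mem_nhds hz, a4.eventually_analyticAt] with w hw hw0
      exact (PB_zero (hd w hw)).2 hw0.differentiableAt
    exact Or.inl fun w hw => ((PB_zero (hd w hw)).1 (a6 hw)).differentiableWithinAt

end Vale.Agent.P198.C1
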