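import Vale.Agent.P198.C1.Hol

/-! Part II-c1: a linear change of the chart makes the action holomorphic or antiholomorphic. -/

open Set Metric Topology Filter InnerProductSpace MeasureTheory
open scoped Laplacian

namespace Vale.Agent.P198

namespace C1

/-- A triangular real linear map of the plane. -/
noncomputable def tri (α γ δ : ℝ) (hα : α ≠ 0) (hδ : δ ≠ 0) : ℂ ≃L[ℝ] ℂ :=
  LinearEquiv.toContinuousLinearEquiv
    { toFun := fun w => ⟨α * w.re, γ * w.re + δ * w.im⟩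
      invFun := fun w => ⟨w.re / α, (w.im - γ * (w.re / α)) / δ⟩
      map_add' := fun x y => by apply Complex.ext <;> simp <;> ring
      map_smul' := fun c x => by apply Complex.ext <;> simp <;> ring
      left_inv := fun x => by apply Complex.ext <;> simp <;> field_simp <;> ring
      right_inv := fun x => by apply Complex.ext <;> simp <;> field_simp <;> ring }

lemma tri_one (α γ δ : ℝ) (hα : α ≠ 0) (hδ : δ ≠ 0) :
    tri α γ δ hα hδ 1 = α • (1 : ℂ) + γ • Complex.I := by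
  apply Complex.ext <;> simp [tri]

lemma tri_I (α γ δ : ℝ) (hα : α ≠ 0) (hδ : δ ≠ 0) :
    tri α γ δ hα hδ Complex.I = δ • Complex.I := by
  apply Complex.ext <;> simp [tri]

lemma exists_T {a b c : ℝ} (ha : 0 < a) (h : b ^ 2 < a * c) : ∃ T : ℂ ≃L[ℝ] ℂ,
    ∀ ψ : ℂ → ℝ, ContDiff ℝ 2 ψ → ∀ p, LL a b c (fun t => ψ (T t)) p = LL 1 0 1 ψ (T p) := by
  have hD : 0 < a * c - b ^ 2 := by linarith
  obtain ⟨α, hα, hα2⟩ : ∃ α : ℝ, α ≠ 0 ∧ a * α ^ 2 = 1 :=
    ⟨√(1 / a), (Real.sqrt_pos.2 (by positivity)).ne', by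
      rw [Real.sq_sqrt (by positivity)]; field_simp⟩
  obtain ⟨δ, hδ, hδ2⟩ : ∃ δ : ℝ, δ ≠ 0 ∧ (a * c - b ^ 2) * δ ^ 2 = a :=
    ⟨√(a / (a * c - b ^ 2)), (Real.sqrt_pos.2 (by positivity)).ne', by
      rw [Real.sq_sqrt (by positivity)]; field_simp⟩
  obtain ⟨γ, hγ⟩ : ∃ γ : ℝ, a * γ + b * δ = 0 := ⟨-(b * δ) / a, by field_simp; ring⟩
  have h3 : a * γ ^ 2 + 2 * b * γ * δ + c * δ ^ 2 = 1 := by
    apply mul_left_cancel₀ ha.ne'
    linear_combination hδ2 + (a * γ + b * δ) * hγ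
  refine ⟨tri α γ δ hα hδ, fun ψ hψ p => ?_⟩
  have e : (fun t => ψ (tri α γ δ hα hδ t)) =
      fun t => ψ ((tri α γ δ hα hδ : ℂ →L[ℝ] ℂ) t + 0) := by simp
  have hs := (hψ.contDiffAt (x := tri α γ δ hα hδ p)).isSymmSndFDerivAt (by simp)
    |>.eq Complex.I 1
  rw [e, LL_eq, Dv_Dv_aff hψ, Dv_Dv_aff hψ, Dv_Dv_aff hψ]
  simp only [LL_eq, Dv_Dv hψ, ContinuousLinearEquiv.coe_coe, tri_one, tri_I,
    add_zero, map_add, map_smul, ContinuousLinearMap.add_apply, ContinuousLinearMap.smul_apply,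
    smul_eq_mul, hs]
  linear_combination
    fderiv ℝ (fderiv ℝ ψ) (tri α γ δ hα hδ p) 1 1 * hα2 +
    2 * α * fderiv ℝ (fderiv ℝ ψ) (tri α γ δ hα hδ p) 1 Complex.I * hγ +
    fderiv ℝ (fderiv ℝ ψ) (tri α γ δ hα hδ p) Complex.I Complex.I * h3

lemma int_zero (T : ℂ ≃L[ℝ] ℂ) {f : ℂ → ℝ} (h : ∫ x, f (T x) = 0) : ∫ x, f x = 0 := by
  have hd : LinearMap.det (T : ℂ →ₗ[ℝ] ℂ) ≠ 0 := T.toLinearEquiv.isUnit_det'.ne_zero
  have h1 := Measure.map_linearMap_addHaar_eq_smul_addHaar (volume : Measure ℂ) hd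
  have h2 : ∫ x, f x ∂(Measure.map (T : ℂ →ₗ[ℝ] ℂ) volume) = ∫ x, f (T x) :=
    T.toHomeomorph.measurableEmbedding.integral_map f
  rw [h1, h, integral_smul_measure, smul_eq_zero] at h2
  refine h2.resolve_left ?_
  rw [ENNReal.toReal_ofReal (abs_nonneg _)]
  simpa using hd

variable {G Z : Type*} [Group G] [MetricSpace Z] [MulAction G Z]

/-- The chart after a linear change. -/
noncomputable def chg (c : GCh Z) (T : ℂ ≃L[ℝ] ℂ) : GCh Z where
  b := c.b
  h := fun x => T (c.h x)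
  k := fun w => c.k (T.symm w)
  h_cont := T.continuous.comp_continuousOn c.h_cont
  k_cont := c.k_cont.comp T.symm.continuous
  k_ne := fun _ => c.k_ne _
  hk := fun w => by simp [c.hk]
  kh := fun x hx => by simp [c.kh x hx]
  k_inf := c.k_inf.comp T.symm.toHomeomorph.isClosedEmbedding.tendsto_cocompact
  h_inf := T.toHomeomorph.isClosedEmbedding.tendsto_cocompact.comp c.h_inf

lemma weak_chg {c : GCh Z} {a11 a12 a22 : ℝ} (hw : c.Weak G a11 a12 a22) (T : ℂ ≃L[ℝ] ℂ)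
    (hT : ∀ ψ : ℂ → ℝ, ContDiff ℝ 2 ψ → ∀ p,
      LL a11 a12 a22 (fun t => ψ (T t)) p = LL 1 0 1 ψ (T p)) : (chg c T).Weak G 1 0 1 := by
  intro g P ψ hP hL hψ hc hs
  refine int_zero T ?_
  have := hw g (fun t => P (T t)) (fun t => ψ (T t)) (hP.comp T.contDiff)
    (fun p => by rw [hT P hP, hL]) (hψ.comp T.contDiff) (hc.comp_homeomorph T.toHomeomorph)
    fun w hw => by
      have h1 : T w ∈ tsupport ψ := tsupport_comp_subset_preimage ψ T.continuous hw
      simpa [chg] using hs _ h1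
  simpa [chg, hT ψ hψ] using this

lemma hol_of_weak (D : Dyn G Z) {c : GCh Z} (hw : c.Weak G 1 0 1) : c.Hol G := by
  intro g
  have hk : Continuous fun w => g • c.k w := (D.cont_smul g).comp c.k_cont
  have hW : IsOpen {w | g • c.k w ≠ c.b} := isOpen_ne_fun hk continuous_const
  have hc : IsPreconnected {w | g • c.k w ≠ c.b} := by
    have h1 : ({w | g • c.k w = c.b} : Set ℂ).Subsingleton := fun x hx y hy => by
      have : c.k x = c.k y := smul_left_cancel g (hx.trans hy.symm)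
      rw [← c.hk x, this, c.hk]
    exact (h1.countable.isConnected_compl_of_one_lt_rank (by simp)).isPreconnected
  have hF : ContinuousOn (fun w => c.h (g • c.k w)) {w | g • c.k w ≠ c.b} :=
    c.h_cont.comp hk.continuousOn fun w hw => hw
  have key : ∀ P : ℂ → ℝ, (∀ p, HarmonicAt P p) →
      HarmonicOnNhd (fun w => P (c.h (g • c.k w))) {w | g • c.k w ≠ c.b} := by
    intro P hP
    have h1 : ContDiff ℝ 2 P := contDiff_iff_contDiffAt.2 fun p => (hP p).1
    exact weyl hW (h1.continuous.comp_continuousOn hF) fun ψ h2 h3 h4 =>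
      hw g P ψ h1 (fun p => by rw [LL_lap h1, (hP p).2.eq_of_nhds]; rfl) h2 h3 fun w hw => h4 hw
  exact hol_or_anti hW hc
    (key (fun w => w.re) fun p => (analyticAt_id (𝕜 := ℂ) (z := p)).harmonicAt_re)
    (key (fun w => w.im) fun p => (analyticAt_id (𝕜 := ℂ) (z := p)).harmonicAt_im)
    (key (fun w => (w ^ 2).re) fun p => ((analyticAt_id (𝕜 := ℂ) (z := p)).pow 2).harmonicAt_re)
    (key (fun w => (w ^ 2).im) fun p => ((analyticAt_id (𝕜 := ℂ) (z := p)).pow 2).harmonicAt_im)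

end C1

theorem partIIc1 {G Z : Type*} [Group G] [MetricSpace Z] [MulAction G Z] (D : Dyn G Z) :
    PartIIc1 G Z := by
  intro c a11 a12 a22 ha h hw
  obtain ⟨T, hT⟩ := C1.exists_T ha h
  exact ⟨C1.chg c T, C1.hol_of_weak D (C1.weak_chg hw T hT)⟩

end Vale.Agent.P198
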