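import Vale.Agent.P198.C1.Calc

/-! Weyl's lemma for continuous functions in the plane. -/

open Set Metric Topology Filter InnerProductSpace MeasureTheory Real
open scoped Laplacian Convolution

namespace Vale.Agent.P198.C1

/-- Weakly harmonic on `W`. -/
def WH (W : Set ℂ) (u : ℂ → ℝ) : Prop :=
  ∀ ψ : ℂ → ℝ, ContDiff ℝ 2 ψ → HasCompactSupport ψ → tsupport ψ ⊆ W →
    ∫ w, u w * LL 1 0 1 ψ w = 0

lemma moll_harm {f : ℂ → ℝ} (hf : Continuous f) {p : ℂ} {R : ℝ} (hw : WH (ball p (3 * R)) f)
    (φ : ContDiffBump (0 : ℂ)) (hφ : φ.rOut < R) :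
    HarmonicOnNhd (f ⋆[ContinuousLinearMap.lsmul ℝ ℝ, volume] φ.normed volume) (closedBall p R) := by
  have hg : ContDiff ℝ 2 (φ.normed volume) := by exact_mod_cast φ.contDiff_normed (n := 2)
  have hc : HasCompactSupport (φ.normed volume) := φ.hasCompactSupport_normed
  have hs : ContDiff ℝ 2 (f ⋆[ContinuousLinearMap.lsmul ℝ ℝ, volume] φ.normed volume) := by
    exact_mod_cast hc.contDiff_convolution_right (n := 2) _ hf.locallyIntegrable
      (by exact_mod_cast hg)
  have hR : 0 < R := φ.rOut_pos.trans hφ
  intro x hx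
  refine ⟨hs.contDiffAt, ?_⟩
  have hx' : x ∈ ball p (2 * R) := closedBall_subset_ball (by linarith) hx
  filter_upwards [isOpen_ball.mem_nhds hx'] with z hz
  rw [← LL_lap hs, LL_conv hf hg hc]
  simp only [← LL_refl hg]
  have e : tsupport (fun t => φ.normed volume (z - t)) ⊆ closedBall z φ.rOut := by
    refine closure_minimal (fun t ht => ?_) isClosed_closedBall
    have : z - t ∈ Function.support (φ.normed volume) := ht
    rw [φ.support_normed_eq, mem_ball_zero_iff] at this
    rw [mem_closedBall, dist_comm, dist_eq_norm]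
    exact this.le
  refine hw _ (hg.comp (contDiff_const.sub contDiff_id))
    ((isCompact_closedBall z φ.rOut).of_isClosed_subset (isClosed_tsupport _) e)
    (e.trans fun t ht => ?_)
  rw [mem_closedBall] at ht
  rw [mem_ball] at hz ⊢
  linarith [dist_triangle t z p]

lemma poisson_lim {f : ℂ → ℝ} (hf : Continuous f) {M : ℝ} (hM : ∀ x, ‖f x‖ ≤ M) {p : ℂ} {R : ℝ}
    (hw : WH (ball p (3 * R)) f) {w : ℂ} (h : w ∈ ball p R) :
    circleAverage ((Complex.re ∘ herglotzRieszKernel p w) • f) p R = f w := by
  have hR : 0 < R := pos_of_mem_ball h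
  let φ : ℕ → ContDiffBump (0 : ℂ) := fun n =>
    ⟨1 / ((n : ℝ) + 1) / 2, 1 / ((n : ℝ) + 1), by positivity, half_lt_self (by positivity)⟩
  have hφ : Tendsto (fun n => (φ n).rOut) atTop (𝓝 0) := tendsto_one_div_add_atTop_nhds_zero_nat
  set u : ℕ → ℂ → ℝ := fun n => f ⋆[ContinuousLinearMap.lsmul ℝ ℝ, volume] (φ n).normed volume
    with hu
  have hu' : ∀ n, u n = (φ n).normed volume ⋆[ContinuousLinearMap.lsmul ℝ ℝ, volume] f := by
    intro n
    have e : (ContinuousLinearMap.lsmul ℝ ℝ : ℝ →L[ℝ] ℝ →L[ℝ] ℝ).flip =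
        ContinuousLinearMap.lsmul ℝ ℝ := by ext; simp
    rw [← convolution_flip, e]
  have h1 : ∀ x, Tendsto (fun n => u n x) atTop (𝓝 (f x)) := fun x => by
    simp only [hu']
    exact ContDiffBump.convolution_tendsto_right_of_continuous hφ hf x
  have h2 : ∀ n x, ‖u n x‖ ≤ 3 * M := fun n x => by
    have : dist (u n x) (f x) ≤ 2 * M := by
      rw [hu']
      refine (φ n).dist_normed_convolution_le hf.aestronglyMeasurable fun y _ => ?_
      rw [dist_eq_norm]
      linarith [norm_sub_le (f y) (f x), hM x, hM y]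
    rw [dist_eq_norm] at this
    linarith [norm_le_norm_add_norm_sub' (u n x) (f x), hM x]
  have h3 : ∀ n, Continuous (u n) := fun n =>
    (φ n).hasCompactSupport_normed.continuous_convolution_right _ hf.locallyIntegrable
      (φ n).continuous_normed
  have hK : Continuous fun θ : ℝ => (herglotzRieszKernel p w (circleMap p R θ)).re :=
    Complex.continuous_re.comp ((continuousOn_herglotzRieszKernel_sphere h).comp_continuous
      (continuous_circleMap p R) fun θ => circleMap_mem_sphere' p R θ)
  have h4 : Tendsto (fun n => circleAverage ((Complex.re ∘ herglotzRieszKernel p w) • u n) p R)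
      atTop (𝓝 (circleAverage ((Complex.re ∘ herglotzRieszKernel p w) • f) p R)) := by
    simp only [circleAverage_def]
    refine Tendsto.const_smul ?_ _
    refine intervalIntegral.tendsto_integral_filter_of_dominated_convergence
      (fun θ => ‖(herglotzRieszKernel p w (circleMap p R θ)).re‖ * (3 * M)) ?_ ?_ ?_ ?_
    · exact Eventually.of_forall fun n =>
        (hK.smul ((h3 n).comp (continuous_circleMap p R))).aestronglyMeasurable
    · refine Eventually.of_forall fun n => Eventually.of_forall fun θ _ => ?_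
      simp only [Pi.smul_apply', Function.comp_apply, norm_smul]
      exact mul_le_mul_of_nonneg_left (h2 n _) (norm_nonneg _)
    · exact (hK.norm.mul continuous_const).intervalIntegrable _ _
    · exact Eventually.of_forall fun θ _ =>
        (h1 (circleMap p R θ)).const_smul (herglotzRieszKernel p w (circleMap p R θ)).re
  refine tendsto_nhds_unique h4 ((h1 w).congr' ?_)
  filter_upwards [hφ.eventually (gt_mem_nhds hR)] with n hn
  exact ((moll_harm hf hw (φ n) hn).circleAverage_re_herglotzRieszKernel_smul h).symm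

lemma harm_glob {f : ℂ → ℝ} (hf : Continuous f) {M : ℝ} (hM : ∀ x, ‖f x‖ ≤ M) {p : ℂ} {R : ℝ}
    (hR : 0 < R) (hw : WH (ball p (3 * R)) f) : HarmonicAt f p := by
  have hg : CircleIntegrable (fun ζ => f (ζ + p)) 0 R :=
    (hf.comp (continuous_id.add continuous_const)).continuousOn.circleIntegrable'
  have hg' : CircleIntegrable (fun ζ => (f (ζ + p) : ℂ)) 0 R :=
    (Complex.continuous_ofReal.comp
      (hf.comp (continuous_id.add continuous_const))).continuousOn.circleIntegrable'
  have ha := analyticOnNhd_circleAverage_herglotzRieszKernel_smul hg' 0 (mem_ball_self hR)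
  have hb : AnalyticAt ℂ (fun w => circleAverage
      (fun ζ => herglotzRieszKernel 0 (w - p) ζ • (f (ζ + p) : ℂ)) 0 R) p :=
    AnalyticAt.comp_of_eq (g := fun w => circleAverage
      (fun ζ => herglotzRieszKernel 0 w ζ • (f (ζ + p) : ℂ)) 0 R) (f := fun w => w - p) ha
      (by fun_prop) (sub_self p)
  refine (harmonicAt_congr_nhds ?_).1 hb.harmonicAt_re
  filter_upwards [ball_mem_nhds p hR] with w h
  have h' : w - p ∈ ball (0 : ℂ) R := by simpa [dist_eq_norm] using h
  rw [re_circleAverage_herglotzRieszKernel_smul hg h', ← poisson_lim hf hM hw h,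
    ← circleAverage_map_add_const (c := p)]
  congr 1
  funext z
  simp [herglotzRieszKernel_add_const]

theorem weyl {W : Set ℂ} (hW : IsOpen W) {u : ℂ → ℝ} (hu : ContinuousOn u W) (hw : WH W u) :
    HarmonicOnNhd u W := by
  intro p hp
  obtain ⟨r, hr, hs⟩ := Metric.isOpen_iff.1 hW p hp
  let χ : ContDiffBump p := ⟨3 * (r / 5), 4 * (r / 5), by positivity, by linarith⟩
  have ht : tsupport (fun x => χ x * u x) ⊆ closedBall p (4 * (r / 5)) :=
    (tsupport_mul_subset_left).trans χ.tsupport_eq.subset
  have hb : closedBall p (4 * (r / 5)) ⊆ W := (closedBall_subset_ball (by linarith)).trans hs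
  have hf : Continuous fun x => χ x * u x := continuous_of_tsupport fun x hx =>
    χ.continuous.continuousAt.mul (hu.continuousAt (hW.mem_nhds (hb (ht hx))))
  have hc : HasCompactSupport fun x => χ x * u x := χ.hasCompactSupport.mul_right
  obtain ⟨M, hM⟩ := hc.exists_bound_of_continuous hf
  have he : ∀ x ∈ ball p (3 * (r / 5)), χ x * u x = u x := fun x hx => by
    rw [χ.one_of_mem_closedBall (ball_subset_closedBall hx), one_mul]
  have h1 : HarmonicAt (fun x => χ x * u x) p := by
    refine harm_glob hf hM (R := r / 5) (by positivity) fun ψ h1 h2 h3 => ?_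
    refine Eq.trans ?_ (hw ψ h1 h2 (h3.trans ((ball_subset_ball (by linarith)).trans hs)))
    congr 1
    funext x
    by_cases hx : x ∈ tsupport ψ
    · simp only [he x (h3 hx)]
    · simp [LL_zero hx]
  refine (harmonicAt_congr_nhds ?_).1 h1
  filter_upwards [ball_mem_nhds p (show 0 < 3 * (r / 5) by positivity)] with x hx using he x hx

end Vale.Agent.P198.C1
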